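import Vale.Agent.P092.R3.H381.AdjL
import Vale.Agent.P092.R3.H381.AdjSp
import Vale.Agent.P092.R3.H381.Sub5

/-!
P092, all amplifications, all admissible subgroups. Let `Γ` and `Λ` be groups, `Λ` ICC, and let `θ`
be a `*`-isomorphism of `L(Γ)` onto a corner `p M_{n+1}(L(Λ)) p`, that is `L(Γ)^t ≅ L(Λ)` with
`t = 1 / (Tr ⊗ τ)(p)`; every `t > 0` occurs in this form. Put
`F(g) = ∑_{i,j} ∑_s |τ(θ(u_g)_ij v_s*)|⁴`. Then either `t = 1` and `θ` is canonical, and `F` is
bounded below on `Γ`, or `F` decays along every group `H → Γ` containing an admissible subgroup `A`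
(for example `A = H = Γ` when `Γ` is ICC, and `A = H = PSL_N(ℤ)` in `PSL_N(ℤ[1/m])`): the averages
over the random walks of `H` decay exponentially with the rate given by any Kazhdan pair of `H`
relative to `A`, they tend to zero for every finite generating set of `H`, and `F` is small at the
same time on finitely many translates of some element of `A`. For the subgroups of `PGL_N(ℚ)` and
`PGSp_{2N}(ℚ)` which contain a finite index subgroup of `PSL_N(ℤ)` resp. `PSp_{2N}(ℤ)`, `N ≥ 3` (for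
example `PGL_N(ℤ[1/m])` and `PGSp_{2N}(ℤ[1/m])`), property (T) of the subgroup of the integral
elements is proved here, and there is one constant for all `Λ`, all `t` and all `θ` (`Unif`).
-/

open Filter Topology
open Vale.Agent.P092.H160 Vale.Agent.P092.H160.St Vale.Agent.P092.H885 Vale.Agent.P092.H367
open Vale.Agent.P092.H367.Mt Vale.Agent.P092.H381.Sg Vale.Agent.P092.H367.Proj
open Vale.Agent.P092.H381.Adj

theorem Vale.Agent.Results.P092.AmplifiedGap.result :
    (∀ (Γ Λ : Type) [Group Γ] [Group Λ], ICC Λ →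
      ∀ (n : ℕ) (p : Mat n Λ), IsProj p → ∀ θ : AmpIso Γ Λ n p,
      (Canon θ ∧ trM p = 1 ∧ ∃ c : ℝ, 0 < c ∧ ∀ g, c ≤ four (θ.toFun (u g))) ∨
      ∀ (H : Type) [Group H] (φ : H →* Γ) (A : Subgroup H), Adm (A.map φ) (trM p).re →
        SubDecay θ φ A ∧
        ∀ (E : Finset Γ) (ε : ℝ), 0 < ε →
          ∃ h ∈ A, ∀ a ∈ E, ∀ b ∈ E, four (θ.toFun (u (a * φ h * b))) < ε) ∧
    (∀ (Γ : Type) [Group Γ] (t : ℝ), (ICC Γ → Adm (⊤ : Subgroup Γ) t) ∧
      ∀ H : Subgroup Γ, RICC H →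
        ((∀ g, (conj g H).relIndex H ≠ 0) → Adm H t) ∧
        (1 < 2 * t ^ 2 → Subgroup.closure {g | RICC (H ⊓ conj g H)} = ⊤ → Adm H t)) ∧
    (∀ N : ℕ, 3 ≤ N → Unif (incL N) (fun _ => True) ∧ Unif (incS N) IsSim) := by
  have hS : ∀ (Γ : Type) [Group Γ], SubAll Γ := by
    intro Γ _ Λ _ hL n p hp θ
    exact Vale.Agent.P092.H381.sub_all hL hp θ
  refine ⟨fun Γ Λ _ _ hL n p hp θ => hS Γ Λ hL n p hp θ,
    fun Γ _ t => ⟨fun hG => adm_top hG t, fun H hR => ⟨fun hc => adm_of_comm hR hc t,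
      fun ht hg => Or.inl ⟨ht, Vale.Agent.P092.H381.spread_of_gen hR hg⟩⟩⟩,
    fun N hN => ⟨Vale.Agent.P092.H381.unif_L hN hS, Vale.Agent.P092.R2.H289.Spn.unif_S hN hS⟩⟩
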