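import Vale.Agent.P092.R3.H423.Expl
import Vale.Agent.P092.R3.H381.AdjL
import Vale.Agent.P092.R3.H381.AdjSp
import Vale.Agent.P092.R3.H367.StVan

/-!
P092, all amplifications. Let `N ≥ 3`, let `Λ` be an ICC group and let `θ` be a `*`-isomorphism of
`L(Γ)` onto a corner `p M_{n+1}(L(Λ)) p`, that is `L(Γ)^t ≅ L(Λ)` with `t = 1 / (Tr ⊗ τ)(p)`; every
`t > 0` occurs in this form. The group `Γ` is one of the following:

* there are a finite index subgroup `Γ₁` of `SL_N(ℤ)` and an injective homomorphism `j : Γ₁ → Γ`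
  whose image is commensurated and relatively ICC in `Γ` (for example `Γ` is ICC and the image has
  finite index);
* `Γ` is a subgroup of `PGL_N(ℚ) = GL_N(ℚ) / ℚˣ` (given by an injective homomorphism `q`), and
  contains the image of a finite index subgroup of `SL_N(ℤ)` (for example the lattices in `PGL_N(ℝ)`
  commensurable with the image of `SL_N(ℤ)`, and the `S`-arithmetic lattices `PGL_N(ℤ[1/m])`);
* `Γ` is a subgroup of `PGSp_{2N}(ℚ)`, the group of the symplectic similitudes modulo scalars, and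
  contains the image of a finite index subgroup of `Sp_{2N}(ℤ)` (for example the lattices in
  `PGSp_{2N}(ℝ)` commensurable with the image of `Sp_{2N}(ℤ)`).

Either `t = 1` and `θ` is canonical, or for every `x ∈ Γ` with a nontrivial unipotent power:

* the heights of the `θ(u_{x^M})` tend to zero on average (`HV`),
* for every homomorphism `φ : H → Γ` and every subgroup `A` of `H` with `x ∈ φ(A)` the averages of
  the fourth power sums of the `θ(u_{a φ(h) b})` along the random walks on `H` tend to zero,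
  exponentially with the rate given by any Kazhdan pair of `H` relative to `A` (`SubDecay`),
* explicit rates for the quadruples of two translations and two shears which contain `x`
  (`ShearDecay`).
-/

open Vale.Agent.P092.H367 Vale.Agent.P092.H367.Mt Vale.Agent.P092.H381.Sg
open Vale.Agent.P092.H381.Adj

theorem Vale.Agent.Results.P092.AmplifiedHeights.result {N : ℕ} (hN : 3 ≤ N)
    (Γ Λ : Type) [Group Γ] [Group Λ] (hΛ : ICC Λ)
    (n : ℕ) (p : Mat n Λ) (hp : IsProj p) (θ : AmpIso Γ Λ n p) :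
    (∀ (Γ₁ : Subgroup (Matrix.SpecialLinearGroup (Fin N) ℤ)) [Γ₁.FiniteIndex] (j : Γ₁ →* Γ),
      Function.Injective j → RICC j.range → (∀ g, (conj g j.range).relIndex j.range ≠ 0) →
      (Canon θ ∧ trM p = 1) ∨
        ∀ (x : Γ) (k : ℕ) (y : Γ₁), x ^ k = j y → y ≠ 1 →
          IsNilpotent (((y : Matrix.SpecialLinearGroup (Fin N) ℤ) :
            Matrix (Fin N) (Fin N) ℤ) - 1) → Van θ x) ∧
    (∀ q : Γ →* Matrix.GeneralLinearGroup (Fin N) ℚ ⧸
        Subgroup.center (Matrix.GeneralLinearGroup (Fin N) ℚ),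
      Arith (incL N) (fun _ => True) q →
      (Canon θ ∧ trM p = 1) ∨
        ∀ (x : Γ) (k : ℕ) (Y : Matrix.GeneralLinearGroup (Fin N) ℚ),
          q (x ^ k) = QuotientGroup.mk Y → Y ≠ 1 →
          IsNilpotent ((Y : Matrix (Fin N) (Fin N) ℚ) - 1) → Van θ x) ∧
    (∀ q : Γ →* Matrix.GeneralLinearGroup (Fin N ⊕ Fin N) ℚ ⧸
        Subgroup.center (Matrix.GeneralLinearGroup (Fin N ⊕ Fin N) ℚ),
      Arith (incS N) IsSim q →
      (Canon θ ∧ trM p = 1) ∨
        ∀ (x : Γ) (k : ℕ) (Y : Matrix.GeneralLinearGroup (Fin N ⊕ Fin N) ℚ),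
          q (x ^ k) = QuotientGroup.mk Y → Y ≠ 1 →
          IsNilpotent ((Y : Matrix (Fin N ⊕ Fin N) (Fin N ⊕ Fin N) ℚ) - 1) → Van θ x) := by
  refine ⟨?_, ?_, ?_⟩
  · intro Γ₁ _ j hj hR hc
    have hΓ : ICC Γ := Vale.Agent.P092.H381.ricc_icc hR
    exact (Vale.Agent.P092.R2.H289.canon_or_heightsc hN Γ₁ j hj hR hc hΛ hp θ).imp id
      fun h x k y h1 h2 h3 =>
        have hv := h x k y h1 h2 h3
        ⟨hv, fun _ _ φ A hx => Vale.Agent.P092.H423.sub_of_hv hΓ hp θ hv φ A hx,
          Vale.Agent.P092.H423.shear_of_hv hΓ hp θ hv⟩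
  · intro q hq
    have hΓ : ICC Γ := Vale.Agent.P092.H381.icc_pgl (by omega) q hq.1 hq.2.2
    exact (Vale.Agent.P092.H381.canon_or_heights_pgl hN q hq.1 hq.2.2 hΛ hp θ).imp id
      fun h x k Y h1 h2 h3 =>
        have hv := h x k Y h1 h2 h3
        ⟨hv, fun _ _ φ A hx => Vale.Agent.P092.H423.sub_of_hv hΓ hp θ hv φ A hx,
          Vale.Agent.P092.H423.shear_of_hv hΓ hp θ hv⟩
  · intro q hq
    have hΓ : ICC Γ := Vale.Agent.P092.R2.H289.Spn.icc_pgsp (by omega) q hq.1 hq.2.2
    exact (Vale.Agent.P092.R2.H289.Spn.canon_or_heights_pgsp hN q hq.1 hq.2.1 hq.2.2 hΛ hp θ).imp id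
      fun h x k Y h1 h2 h3 =>
        have hv := h x k Y h1 h2 h3
        ⟨hv, fun _ _ φ A hx => Vale.Agent.P092.H423.sub_of_hv hΓ hp θ hv φ A hx,
          Vale.Agent.P092.H423.shear_of_hv hΓ hp θ hv⟩
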