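import Vale.Agent.P092.R2.H350.Exo2

/-!
P092: the canonicity part of Q1 fails for ICC groups with property (T). For `n ≥ 3` the group
`Γ = ℤ^{2n} ⋊ Sp_{2n}(ℤ)` is ICC, has property (T), and `L(Γ)` has a group `θ_N`, `N ∈ ℤ`, of trace
preserving automorphisms which fix every `u_a`, `a ∈ ℤ^{2n}`, and are canonical only for `N = 0`.
-/

open Vale.Agent.P092.H160 Vale.Agent.P092.H160.St Vale.Agent.P092.R2.H559.St
open Vale.Agent.P092.R2.H350

theorem Vale.Agent.Results.P092.ExoticAutomorphisms.result (n : ℕ) (hn : 3 ≤ n) :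
    (∀ x : Gam n, x ≠ 1 → Set.Infinite {y : Gam n | ∃ h, y = h * x * h⁻¹}) ∧
    HasT (Gam n) ∧
    ∃ θ : ℤ → StarIso (Gam n) (Gam n),
      (∀ N T, InL T → tr ((θ N).toFun T) = tr T) ∧
      (∀ (N : ℤ) (a : Gam n), a.g = 1 → (θ N).toFun (u a) = u a) ∧
      (∀ T, InL T → (θ 0).toFun T = T) ∧
      (∀ N M T, InL T → (θ (N + M)).toFun T = (θ N).toFun ((θ M).toFun T)) ∧
      ∀ N : ℤ, St.Canonical (θ N) ↔ N = 0 :=
  ⟨icc_Gam n, hasT_Gam hn, th n, fun N T _ => (spatial_WW n N).trace T, fun N _ ha => th_tr N ha,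
    fun T _ => th_zero T, fun N M T _ => th_add N M T, canonical_iff_zero (by omega)⟩
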