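import Vale.Agent.P092.R2.H559.Final

/-!
P092: the analogue of Q1 for all ICC groups with property (T) is false. For `n ≥ 3` the group
`Γ = ℤ^{2n} ⋊ Sp_{2n}(ℤ)` and its subgroup `Λ` of the pairs `(u, g)` with
`ω(u, m) ≡ q(m) + q(g⁻¹ m) (mod 2)` for all `m ∈ ℤ^{2n}`, where `q(x, y) = ∑ x_i y_i`, are ICC, have
property (T), are not isomorphic, and have isomorphic group von Neumann algebras.
-/

open Vale.Agent.P092.H160.St Vale.Agent.P092.R2.H559.St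

theorem Vale.Agent.Results.P092.GeneralRigidityFails.result :
    (∀ n : ℕ, 3 ≤ n →
      (∀ x : Gam n, x ≠ 1 → Set.Infinite {y : Gam n | ∃ h, y = h * x * h⁻¹}) ∧
      (∀ x : Lam n, x ≠ 1 → Set.Infinite {y : Lam n | ∃ h, y = h * x * h⁻¹}) ∧
      HasT (Gam n) ∧ HasT (Lam n) ∧ (Lam n).index = 4 ^ n ∧ IsEmpty (Gam n ≃* Lam n) ∧
      ∃ θ : StarIso (Gam n) (Lam n), ∀ T, InL T → tr (θ.toFun T) = tr T) ∧
    (∀ (n : ℕ) (S : Subgroup (Sp n)),
      ∃ θ : StarIso (GamS S) (Lam n ⊓ GamS S : Subgroup (Gam n)),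
        ∀ T, InL T → tr (θ.toFun T) = tr T) := by
  refine ⟨fun n hn => ⟨icc_Gam n, icc_Lam n, hasT_Gam hn, hasT_Lam hn, index_Lam n,
    not_iso (by omega), ?_⟩, fun n S => ?_⟩
  · obtain ⟨W, hW⟩ := Vale.Agent.P092.R2.H559.iso_St n
    exact ⟨hW.starIso, fun T _ => hW.trace T⟩
  · obtain ⟨W, hW⟩ := Vale.Agent.P092.R2.H559.iso_StS S
    exact ⟨hW.starIso, fun T _ => hW.trace T⟩
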